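import Vale.Agent.P062.Game

namespace Vale.Agent.P062

/-- Maps preserving the family of copies. -/
def Pres (g : ℤ × ℤ → ℤ × ℤ) : Prop :=
  Function.Injective g ∧ ∀ T, IsCopy T → IsCopy (g '' T)

lemma Pres.comp {g h : ℤ × ℤ → ℤ × ℤ} (hg : Pres g) (hh : Pres h) : Pres (g ∘ h) :=
  ⟨hg.1.comp hh.1, fun T hT => by rw [Set.image_comp]; exact hg.2 _ (hh.2 _ hT)⟩

lemma pres_id : Pres id := ⟨Function.injective_id, fun T hT => by simpa using hT⟩

lemma pres_add (v : ℤ × ℤ) : Pres (fun p => p + v) := by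
  refine ⟨add_left_injective v, ?_⟩
  rintro T ⟨t, e, d, he, hd, rfl | rfl⟩
  · refine ⟨t + v, e, d, he, hd, Or.inl ?_⟩
    rw [Set.image_image]; congr 1; funext p; abel
  · refine ⟨t + v, e, d, he, hd, Or.inr ?_⟩
    rw [Set.image_image]; congr 1; funext p; abel

lemma pres_swap : Pres (fun p => (p.2, p.1)) := by
  refine ⟨fun p q h => ?_, ?_⟩
  · simp only [Prod.mk.injEq] at h; exact Prod.ext h.2 h.1
  rintro T ⟨t, e, d, he, hd, rfl | rfl⟩
  · refine ⟨(t.2, t.1), d, e, hd, he, Or.inr ?_⟩
    rw [Set.image_image]; congr 1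
  · refine ⟨(t.2, t.1), d, e, hd, he, Or.inl ?_⟩
    rw [Set.image_image]; congr 1

lemma pres_fx (a : ℤ) : Pres (fun p => (a - p.1, p.2)) := by
  refine ⟨fun p q h => ?_, ?_⟩
  · simp only [Prod.mk.injEq] at h; exact Prod.ext (by linarith [h.1]) h.2
  rintro T ⟨t, e, d, he, hd, rfl | rfl⟩
  · refine ⟨(a - t.1, t.2), -e, d, by omega, hd, Or.inl ?_⟩
    rw [Set.image_image]; congr 1; funext p; ext <;> simp; ring
  · refine ⟨(a - t.1, t.2), -e, d, by omega, hd, Or.inr ?_⟩
    rw [Set.image_image]; congr 1; funext p; ext <;> simp; ring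

lemma pres_fy (a : ℤ) : Pres (fun p => (p.1, a - p.2)) := by
  refine ⟨fun p q h => ?_, ?_⟩
  · simp only [Prod.mk.injEq] at h; exact Prod.ext h.1 (by linarith [h.2])
  rintro T ⟨t, e, d, he, hd, rfl | rfl⟩
  · refine ⟨(t.1, a - t.2), e, -d, he, by omega, Or.inl ?_⟩
    rw [Set.image_image]; congr 1; funext p; ext <;> simp; ring
  · refine ⟨(t.1, a - t.2), e, -d, he, by omega, Or.inr ?_⟩
    rw [Set.image_image]; congr 1; funext p; ext <;> simp; ring

def cellOf (i : ℕ) : ℤ × ℤ := (((i % 32 : ℕ) : ℤ), ((i / 32 : ℕ) : ℤ))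

lemma cellOf_inj : Function.Injective cellOf := by
  intro i j h
  simp only [cellOf, Prod.mk.injEq, Nat.cast_inj] at h
  omega

/-- Maker, to move, wins in `k` moves if he owns the cells of `C` and Breaker owns no cell of `Z`. -/
def Good (C Z k : ℕ) : Prop :=
  ∀ g, Pres g → ∀ M B : Finset (ℤ × ℤ), Disjoint M B →
    (∀ i, C.testBit i = true → g (cellOf i) ∈ M) →
    (∀ i, Z.testBit i = true → g (cellOf i) ∉ B) → Wins k M B

lemma Good.map {C Z k C' Z' k' : ℕ} (h : Good C Z k) (f : ℤ × ℤ → ℤ × ℤ) (hf : Pres f)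
    (hC : ∀ i, C.testBit i = true → ∃ j, C'.testBit j = true ∧ cellOf j = f (cellOf i))
    (hZ : ∀ i, Z.testBit i = true → ∃ j, Z'.testBit j = true ∧ cellOf j = f (cellOf i))
    (hk : k ≤ k') : Good C' Z' k' := by
  intro g hg M B hd h1 h2
  refine (h (g ∘ f) (hg.comp hf) M B hd (fun i hi => ?_) (fun i hi => ?_)).mono hk
  · obtain ⟨j, hj, e⟩ := hC i hi
    have := h1 j hj
    rwa [e] at this
  · obtain ⟨j, hj, e⟩ := hZ i hi
    have := h2 j hj
    rwa [e] at this

def baseC : ℕ := 103079215119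

lemma good_base : Good baseC 0 0 := by
  intro g hg M B _ h1 _
  refine ⟨g '' snaky, hg.2 _ ⟨0, 1, 1, Or.inl rfl, Or.inl rfl, Or.inl (by simp)⟩, ?_⟩
  rintro _ ⟨p, hp, rfl⟩
  simp only [snaky, Set.mem_insert_iff, Set.mem_singleton_iff] at hp
  rcases hp with rfl | rfl | rfl | rfl | rfl | rfl
  · exact h1 0 (by decide)
  · exact h1 1 (by decide)
  · exact h1 2 (by decide)
  · exact h1 3 (by decide)
  · exact h1 35 (by decide)
  · exact h1 36 (by decide)

open Classical in
/-- The move rule. -/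
lemma good_move {C Z k x : ℕ} (ch : List (ℕ × ℕ)) (hne : ch ≠ [])
    (hx : Z.testBit x = true)
    (hg : ∀ c ∈ ch, Good c.1 c.2 k)
    (hC : ∀ c ∈ ch, ∀ i, c.1.testBit i = true → C.testBit i = true ∨ i = x)
    (hZ : ∀ c ∈ ch, ∀ i, c.2.testBit i = true → Z.testBit i = true ∨ C.testBit i = true)
    (hI : ∀ i, (∀ c ∈ ch, c.2.testBit i = true) → C.testBit i = true ∨ i = x) :
    Good C Z (k + 1) := by
  intro g hP M B hd h1 h2
  have main : ∀ z, z ∉ M → z ∉ B → g (cellOf x) ∈ insert z M →
      ∀ y, y ∉ insert z M → y ∉ B → Wins k (insert z M) (insert y B) := by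
    intro z _ hzB hxz y hy hyB
    have hU : ∀ i, (C.testBit i = true ∨ i = x) → g (cellOf i) ∈ insert z M := by
      rintro i (h | rfl)
      · exact Finset.mem_insert_of_mem (h1 i h)
      · exact hxz
    have hex : ∃ c ∈ ch, ∀ i, c.2.testBit i = true → g (cellOf i) ≠ y := by
      by_contra hcon
      push Not at hcon
      obtain ⟨c0, hc0⟩ := List.exists_mem_of_ne_nil ch hne
      obtain ⟨i0, -, e0⟩ := hcon c0 hc0
      have : ∀ c ∈ ch, c.2.testBit i0 = true := by
        intro c hc
        obtain ⟨i, hi, e⟩ := hcon c hc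
        have : i = i0 := cellOf_inj (hP.1 (e.trans e0.symm))
        rwa [this] at hi
      exact hy (e0 ▸ hU i0 (hI i0 this))
    obtain ⟨c, hc, hcy⟩ := hex
    refine hg c hc g hP _ _ ?_ (fun i hi => hU i (hC c hc i hi)) (fun i hi hmem => ?_)
    · rw [Finset.disjoint_left]
      intro a ha hb
      rcases Finset.mem_insert.1 hb with rfl | hb
      · exact hy ha
      · rcases Finset.mem_insert.1 ha with rfl | ha
        · exact hzB hb
        · exact Finset.disjoint_left.1 hd ha hb
    · rcases Finset.mem_insert.1 hmem with e | hb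
      · exact hcy i hi e
      · rcases hZ c hc i hi with h | h
        · exact h2 i h hb
        · exact Finset.disjoint_left.1 hd (h1 i h) hb
  by_cases hM : g (cellOf x) ∈ M
  · obtain ⟨z, hz1, hz2⟩ := fresh M B
    exact ⟨z, hz1, hz2, main z hz1 hz2 (Finset.mem_insert_of_mem hM)⟩
  · exact ⟨_, hM, h2 x hx, main _ hM (h2 x hx) (Finset.mem_insert_self _ _)⟩

/-! ### The executable checker -/

inductive Tr
  | base
  | sy (r C Z k idx : ℕ) (sw fx fy : Bool) (a b : ℕ)
  | mv (r C Z k x : ℕ) (ch : List ℕ)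
  | node (m : ℕ) (l r : Tr)

noncomputable def look (t : Tr) (i : ℕ) (f : ℕ → ℕ → ℕ → ℕ → Bool) : Bool :=
  Tr.rec (motive := fun _ => Bool) (f 0 baseC 0 0)
    (fun r C Z k _ _ _ _ _ _ => f r C Z k)
    (fun r C Z k _ _ => f r C Z k)
    (fun m _ _ il ir => Bool.rec il ir (Nat.ble m i)) t

def Tr.All (P : ℕ → ℕ → ℕ → ℕ → Prop) : Tr → Prop
  | .base => P 0 baseC 0 0
  | .sy r C Z k _ _ _ _ _ _ => P r C Z k
  | .mv r C Z k _ _ => P r C Z k
  | .node _ l r => l.All P ∧ r.All P

lemma look_sound {P : ℕ → ℕ → ℕ → ℕ → Prop} {i : ℕ} {f : ℕ → ℕ → ℕ → ℕ → Bool} :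
    ∀ {t : Tr}, t.All P → look t i f = true → ∃ r C Z k, P r C Z k ∧ f r C Z k = true
  | .base, h, e => ⟨_, _, _, _, h, e⟩
  | .sy .., h, e => ⟨_, _, _, _, h, e⟩
  | .mv .., h, e => ⟨_, _, _, _, h, e⟩
  | .node m l r, h, e => by
      have e' : (Bool.rec (look l i f) (look r i f) (Nat.ble m i) : Bool) = true := e
      cases hb : Nat.ble m i
      · rw [hb] at e'; exact look_sound h.1 e'
      · rw [hb] at e'; exact look_sound h.2 e'

/-- conjunction -/
noncomputable def bnd (a b : Bool) : Bool := Bool.rec false b a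

lemma bnd_iff {a b : Bool} : bnd a b = true ↔ a = true ∧ b = true := by
  cases a <;> simp [bnd]

def tb (m i : ℕ) : Bool := Nat.beq (Nat.land 1 (Nat.shiftRight m i)) 1

lemma tb_iff {m i : ℕ} : tb m i = true ↔ m.testBit i = true := by
  unfold tb Nat.testBit
  rw [Nat.beq_eq]
  change 1 &&& (m >>> i) = 1 ↔ _
  rw [Nat.one_and_eq_mod_two]
  simp only [bne_iff_ne, ne_eq]
  omega

def sub (a b : ℕ) : Bool := Nat.beq (Nat.land a b) a

lemma sub_sound {a b : ℕ} (h : sub a b = true) {i : ℕ} (hi : a.testBit i = true) :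
    b.testBit i = true := by
  unfold sub at h
  rw [Nat.beq_eq] at h
  change a &&& b = a at h
  rw [← h, Nat.testBit_and] at hi
  simp only [Bool.and_eq_true] at hi
  exact hi.2

/-- check `p` at every set bit of a row -/
noncomputable def rowBits (p : ℕ → Bool) (fuel : ℕ) : ℕ → Bool :=
  Nat.rec (motive := fun _ => ℕ → Bool) (fun m => Nat.beq m 0)
    (fun n ih m => Nat.rec (motive := fun _ => Bool) true
      (fun m' _ => bnd (Bool.rec (p (Nat.sub 31 n)) true (Nat.beq (Nat.mod (Nat.succ m') 2) 0))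
        (ih (Nat.div (Nat.succ m') 2))) m) fuel

lemma rowBits_sound (p : ℕ → Bool) : ∀ (fuel m : ℕ), fuel ≤ 32 → rowBits p fuel m = true →
    ∀ i, m.testBit i = true → p (32 - fuel + i) = true
  | 0, m, _, h, i, hi => by
      have h' : Nat.beq m 0 = true := h
      rw [Nat.beq_eq] at h'
      subst h'
      simp at hi
  | fuel + 1, 0, _, _, i, hi => by simp at hi
  | fuel + 1, m + 1, hf, h, i, hi => by
      have h' : bnd (Bool.rec (p (31 - fuel)) true (Nat.beq ((m + 1) % 2) 0))
        (rowBits p fuel ((m + 1) / 2)) = true := h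
      rw [bnd_iff] at h'
      rcases i with _ | i
      · have e : Nat.beq ((m + 1) % 2) 0 = false := by
          rw [Nat.testBit_zero, decide_eq_true_eq] at hi
          rw [hi]; rfl
        have h1 := h'.1
        rw [e] at h1
        rw [show 32 - (fuel + 1) + 0 = 31 - fuel by omega]
        exact h1
      · rw [Nat.testBit_succ] at hi
        rw [show 32 - (fuel + 1) + (i + 1) = 32 - fuel + i by omega]
        exact rowBits_sound p fuel _ (by omega) h'.2 i hi

/-- check `p x y` at every set bit `x + 32 y` of `m` -/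
noncomputable def allRows (p : ℕ → ℕ → Bool) (fuel : ℕ) : ℕ → Bool :=
  Nat.rec (motive := fun _ => ℕ → Bool) (fun m => Nat.beq m 0)
    (fun n ih m => Nat.rec (motive := fun _ => Bool) true
      (fun m' _ => bnd (rowBits (p (Nat.sub 31 n)) 32 (Nat.mod (Nat.succ m') 4294967296))
        (ih (Nat.div (Nat.succ m') 4294967296))) m) fuel

lemma allRows_sound (p : ℕ → ℕ → Bool) : ∀ (fuel m : ℕ), fuel ≤ 32 → allRows p fuel m = true →
    ∀ i, m.testBit i = true → p (32 - fuel + i / 32) (i % 32) = true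
  | 0, m, _, h, i, hi => by
      have h' : Nat.beq m 0 = true := h
      rw [Nat.beq_eq] at h'
      subst h'
      simp at hi
  | fuel + 1, 0, _, _, i, hi => by simp at hi
  | fuel + 1, m + 1, hf, h, i, hi => by
      have h' : bnd (rowBits (p (31 - fuel)) 32 ((m + 1) % 2 ^ 32))
        (allRows p fuel ((m + 1) / 2 ^ 32)) = true := h
      rw [bnd_iff] at h'
      by_cases hi32 : i < 32
      · have := rowBits_sound _ 32 _ le_rfl h'.1 i (by rw [Nat.testBit_mod_two_pow]; simp [hi, hi32])
        rw [show 32 - (fuel + 1) + i / 32 = 31 - fuel by omega, show i % 32 = 32 - 32 + i by omega]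
        exact this
      · have := allRows_sound p fuel _ (by omega) h'.2 (i - 32)
          (by rw [Nat.testBit_div_two_pow, show i - 32 + 32 = i by omega]; exact hi)
        rw [show 32 - (fuel + 1) + i / 32 = 32 - fuel + (i - 32) / 32 by omega,
          show i % 32 = (i - 32) % 32 by omega]
        exact this

lemma allRows_sound' {p : ℕ → ℕ → Bool} {m : ℕ} (h : allRows p 32 m = true) (i : ℕ)
    (hi : m.testBit i = true) : p (i / 32) (i % 32) = true := by
  simpa using allRows_sound p 32 m le_rfl h i hi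

noncomputable def flp (f : Bool) (a u : ℕ) : ℕ := Bool.rec u (Nat.sub a u) f

noncomputable def symOk2 (fx fy : Bool) (a b m u v : ℕ) : Bool :=
  bnd (Nat.ble u a) (bnd (Nat.ble v b) (tb m (Nat.add (flp fx a u) (Nat.mul 32 (flp fy b v)))))

noncomputable def symOk (sw fx fy : Bool) (a b m y x : ℕ) : Bool :=
  Bool.rec (symOk2 fx fy a b m x y) (symOk2 fx fy a b m y x) sw

def symMap (sw fx fy : Bool) (a b : ℕ) : ℤ × ℤ → ℤ × ℤ :=
  (if fy then fun p => (p.1, (b : ℤ) - p.2) else id) ∘
    (if fx then fun p => ((a : ℤ) - p.1, p.2) else id) ∘ (if sw then fun p => (p.2, p.1) else id)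

lemma pres_symMap (sw fx fy : Bool) (a b : ℕ) : Pres (symMap sw fx fy a b) := by
  unfold symMap
  refine Pres.comp ?_ (Pres.comp ?_ ?_)
  · cases fy
    · exact pres_id
    · exact pres_fy _
  · cases fx
    · exact pres_id
    · exact pres_fx _
  · cases sw
    · exact pres_id
    · exact pres_swap

lemma symOk2_sound {fx fy : Bool} {a b m u v : ℕ} (ha : a ≤ 31)
    (h : symOk2 fx fy a b m u v = true) :
    ∃ j, m.testBit j = true ∧ cellOf j =
      ((if fx then (a : ℤ) - u else u), (if fy then (b : ℤ) - v else v)) := by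
  unfold symOk2 at h
  rw [bnd_iff, bnd_iff, tb_iff, Nat.ble_eq, Nat.ble_eq] at h
  obtain ⟨h1, h2, h3⟩ := h
  refine ⟨_, h3, ?_⟩
  cases fx <;> cases fy <;> simp only [flp, cellOf, Nat.add_eq, Nat.mul_eq, Nat.sub_eq,
    Prod.mk.injEq, Bool.false_eq_true, if_false, if_true] <;> constructor <;> omega

lemma symOk_sound {sw fx fy : Bool} {a b m i : ℕ} (ha : a ≤ 31)
    (h : symOk sw fx fy a b m (i / 32) (i % 32) = true) :
    ∃ j, m.testBit j = true ∧ cellOf j = symMap sw fx fy a b (cellOf i) := by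
  cases sw
  · obtain ⟨j, hj, e⟩ := symOk2_sound ha (show symOk2 fx fy a b m (i % 32) (i / 32) = true from h)
    refine ⟨j, hj, e.trans ?_⟩
    cases fx <;> cases fy <;> simp [symMap, cellOf]
  · obtain ⟨j, hj, e⟩ := symOk2_sound ha (show symOk2 fx fy a b m (i / 32) (i % 32) = true from h)
    refine ⟨j, hj, e.trans ?_⟩
    cases fx <;> cases fy <;> simp [symMap, cellOf]

def repL : ℕ := 41855804977958881238216860293671333616475814839523861211015363775367857790754367812411590743534994955327154331653972084008334635948471552329445020986934924815945052132199177846429263578652254701150892687317891618273230805205109921907778604060552511649183701335864607145965996450848344889395800702977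

def box (dx : ℕ) : ℕ := Nat.mul (Nat.sub (Nat.shiftLeft 1 (Nat.sub 32 dx)) 1) repL

lemma box_bits : ∀ dx < 32,
    allRows (fun _ x => Nat.ble (Nat.add x dx) 31) 32 (box dx) = true := by
  decide +kernel

lemma box_spec {dx i : ℕ} (hdx : dx < 32) (h : (box dx).testBit i = true) : i % 32 + dx < 32 := by
  have := allRows_sound' (box_bits dx hdx) i h
  simp only [Nat.ble_eq, Nat.add_eq] at this
  omega

lemma Good.shift {C Z k : ℕ} (h : Good C Z k) (s : ℕ)
    (hb : sub (Nat.lor C Z) (box (Nat.mod s 32)) = true) :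
    Good (Nat.shiftLeft C s) (Nat.shiftLeft Z s) k := by
  have key : ∀ m i : ℕ, m.testBit i = true → (Nat.lor C Z).testBit i = true →
      ∃ j, (Nat.shiftLeft m s).testBit j = true ∧ cellOf j = cellOf i + cellOf s := by
    intro m i hi hi'
    have h1 : i % 32 + s % 32 < 32 := box_spec (Nat.mod_lt _ (by norm_num)) (sub_sound hb hi')
    refine ⟨s + i, ?_, ?_⟩
    · change (m <<< s).testBit (s + i) = true
      rw [Nat.testBit_shiftLeft]
      simp [hi]
    · simp only [cellOf, Prod.mk_add_mk, Prod.mk.injEq]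
      constructor <;> omega
  refine h.map _ (pres_add (cellOf s)) (fun i hi => key C i hi ?_) (fun i hi => key Z i hi ?_) le_rfl
  · change (C ||| Z).testBit i = true
    simp [hi]
  · change (C ||| Z).testBit i = true
    simp [hi]

/-- check one child (already shifted masks), then continue -/
noncomputable def edge (U V : ℕ) (cont : ℕ → Bool) (I C Z : ℕ) : Bool :=
  bnd (sub C U) (bnd (sub Z V) (cont (Nat.land I Z)))

noncomputable def edges (tbl : Tr) (r k U V : ℕ) (ch : List ℕ) : ℕ → Bool :=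
  List.rec (motive := fun _ => ℕ → Bool) (fun I => sub I U)
    (fun c _ ih I => look tbl (Nat.div c 1024) (fun r' C Z k' =>
      bnd (Nat.ble (Nat.succ r') r) (bnd (Nat.ble (Nat.succ k') k)
        (bnd (sub (Nat.lor C Z) (box (Nat.mod (Nat.mod c 1024) 32)))
          (edge U V ih I (Nat.shiftLeft C (Nat.mod c 1024)) (Nat.shiftLeft Z (Nat.mod c 1024)))))))
    ch

lemma edges_cons (tbl : Tr) (r k U V c : ℕ) (ch : List ℕ) (I : ℕ) :
    edges tbl r k U V (c :: ch) I = look tbl (Nat.div c 1024) (fun r' C Z k' =>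
      bnd (Nat.ble (Nat.succ r') r) (bnd (Nat.ble (Nat.succ k') k)
        (bnd (sub (Nat.lor C Z) (box (Nat.mod (Nat.mod c 1024) 32)))
          (edge U V (edges tbl r k U V ch) I (Nat.shiftLeft C (Nat.mod c 1024))
            (Nat.shiftLeft Z (Nat.mod c 1024)))))) := rfl

lemma edges_sound {tbl : Tr} {n r k U V : ℕ} (hr : r ≤ n)
    (hT : tbl.All (fun r C Z k => r < n → Good C Z k)) :
    ∀ (ch : List ℕ) (I : ℕ), edges tbl r (k + 1) U V ch I = true →
      ∃ l : List (ℕ × ℕ), l.length = ch.length ∧ (∀ c ∈ l, Good c.1 c.2 k) ∧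
        (∀ c ∈ l, ∀ i, c.1.testBit i = true → U.testBit i = true) ∧
        (∀ c ∈ l, ∀ i, c.2.testBit i = true → V.testBit i = true) ∧
        (∀ i, I.testBit i = true → (∀ c ∈ l, c.2.testBit i = true) → U.testBit i = true)
  | [], I, h => ⟨[], rfl, by simp, by simp, by simp, fun i hi _ => sub_sound h hi⟩
  | c :: ch, I, h => by
      rw [edges_cons] at h
      obtain ⟨r', C, Z, k', hP, h⟩ := look_sound hT h
      simp only [edge, bnd_iff, Nat.ble_eq] at h
      obtain ⟨h1, h2, h3, h4, h5, h6⟩ := h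
      obtain ⟨l, e, g1, g2, g3, g4⟩ := edges_sound hr hT ch _ h6
      have hG := ((hP (by omega)).shift _ h3).map id pres_id (fun i hi => ⟨i, hi, rfl⟩)
        (fun i hi => ⟨i, hi, rfl⟩) (show k' ≤ k by omega)
      refine ⟨(Nat.shiftLeft C (Nat.mod c 1024), Nat.shiftLeft Z (Nat.mod c 1024)) :: l,
        by simp [e], ?_, ?_, ?_, ?_⟩
      · intro d hd
        rcases List.mem_cons.1 hd with rfl | hd
        · exact hG
        · exact g1 d hd
      · intro d hd
        rcases List.mem_cons.1 hd with rfl | hd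
        · exact fun i hi => sub_sound h4 hi
        · exact g2 d hd
      · intro d hd
        rcases List.mem_cons.1 hd with rfl | hd
        · exact fun i hi => sub_sound h5 hi
        · exact g3 d hd
      · intro i hi hall
        refine g4 i ?_ (fun d hd => hall d (List.mem_cons_of_mem _ hd))
        change (I &&& _).testBit i = true
        rw [Nat.testBit_and, hi, hall _ List.mem_cons_self]
        rfl

noncomputable def nonE (l : List ℕ) : Bool := List.rec false (fun _ _ _ => true) l

noncomputable def chkMv (tbl : Tr) (r C Z k x : ℕ) (ch : List ℕ) : Bool :=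
  bnd (nonE ch) (bnd (tb Z x)
    (edges tbl r k (Nat.lor C (Nat.shiftLeft 1 x)) (Nat.lor Z C) ch (Nat.lor Z C)))

noncomputable def chkSy (tbl : Tr) (r C Z k idx : ℕ) (sw fx fy : Bool) (a b : ℕ) : Bool :=
  look tbl idx (fun r' C' Z' k' =>
    bnd (Nat.ble (Nat.succ r') r) (bnd (Nat.ble k' k) (bnd (Nat.ble a 31)
      (bnd (allRows (symOk sw fx fy a b C) 32 C') (allRows (symOk sw fx fy a b Z) 32 Z')))))

noncomputable def chk (tbl t : Tr) : Bool :=
  Tr.rec (motive := fun _ => Bool) true
    (fun r C Z k idx sw fx fy a b => chkSy tbl r C Z k idx sw fx fy a b)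
    (fun r C Z k x ch => chkMv tbl r C Z k x ch)
    (fun _ _ _ il ir => bnd il ir) t

lemma chk_node {tbl l r : Tr} {m : ℕ} (h1 : chk tbl l = true) (h2 : chk tbl r = true) :
    chk tbl (.node m l r) = true := bnd_iff.2 ⟨h1, h2⟩

lemma chkMv_sound {tbl : Tr} {n r C Z k x : ℕ} {ch : List ℕ} (hr : r ≤ n)
    (hT : tbl.All (fun r C Z k => r < n → Good C Z k)) (h : chkMv tbl r C Z k x ch = true) :
    Good C Z k := by
  unfold chkMv at h
  rw [bnd_iff, bnd_iff, tb_iff] at h
  obtain ⟨h1, h2, h3⟩ := h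
  have hne : ch ≠ [] := by rintro rfl; simp [nonE] at h1
  have hU : ∀ i, (Nat.lor C (Nat.shiftLeft 1 x)).testBit i = true → C.testBit i = true ∨ i = x := by
    intro i hi
    change (C ||| 1 <<< x).testBit i = true at hi
    rw [Nat.testBit_or, Bool.or_eq_true, Nat.one_shiftLeft, Nat.testBit_two_pow] at hi
    rcases hi with hi | hi
    · exact Or.inl hi
    · exact Or.inr (by simpa [eq_comm] using hi)
  have hV : ∀ i, (Nat.lor Z C).testBit i = true ↔ Z.testBit i = true ∨ C.testBit i = true := by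
    intro i
    change (Z ||| C).testBit i = true ↔ _
    rw [Nat.testBit_or, Bool.or_eq_true]
  rcases k with _ | k
  · obtain ⟨c, ch, rfl⟩ := List.exists_cons_of_ne_nil hne
    rw [edges_cons] at h3
    obtain ⟨r', C', Z', k', -, h⟩ := look_sound hT h3
    simp only [bnd_iff, Nat.ble_eq] at h
    omega
  obtain ⟨l, e, g1, g2, g3, g4⟩ := edges_sound hr hT ch _ h3
  have hl : l ≠ [] := by
    rintro rfl
    exact hne (List.length_eq_zero_iff.1 e.symm)
  refine good_move l hl h2 g1 (fun c hc i hi => hU i (g2 c hc i hi))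
    (fun c hc i hi => (hV i).1 (g3 c hc i hi)) (fun i hi => hU i (g4 i ?_ hi))
  obtain ⟨c, hc⟩ := List.exists_mem_of_ne_nil l hl
  exact g3 c hc i (hi c hc)

lemma chk_step {tbl : Tr} {n : ℕ} (hT : tbl.All (fun r C Z k => r < n → Good C Z k)) :
    ∀ t : Tr, chk tbl t = true → t.All (fun r C Z k => r < n + 1 → Good C Z k)
  | .base, _ => fun _ => good_base
  | .sy r C Z k idx sw fx fy a b, h => by
      intro hr
      have h : chkSy tbl r C Z k idx sw fx fy a b = true := h
      unfold chkSy at h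
      obtain ⟨r', C', Z', k', hP, h⟩ := look_sound hT h
      simp only [bnd_iff, Nat.ble_eq] at h
      obtain ⟨h1, h2, h3, h4, h5⟩ := h
      exact (hP (by omega)).map _ (pres_symMap sw fx fy a b)
        (fun i hi => symOk_sound h3 (allRows_sound' h4 i hi))
        (fun i hi => symOk_sound h3 (allRows_sound' h5 i hi)) h2
  | .mv r C Z k x ch, h => fun hr => chkMv_sound (by omega) hT h
  | .node m l r, h => by
      have := bnd_iff.1 h
      exact ⟨chk_step hT l this.1, chk_step hT r this.2⟩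

lemma all_zero : ∀ t : Tr, t.All (fun r C Z k => r < 0 → Good C Z k)
  | .base => fun h => absurd h (by simp)
  | .sy .. => fun h => absurd h (by simp)
  | .mv .. => fun h => absurd h (by simp)
  | .node _ l r => ⟨all_zero l, all_zero r⟩

theorem wins_of_chk {tbl : Tr} (h : chk tbl tbl = true) (i n N : ℕ)
    (hr : look tbl i (fun r C _ k => bnd (Nat.ble (Nat.succ r) n) (bnd (Nat.beq C 0) (Nat.ble k N)))
      = true) : Wins N ∅ ∅ := by
  have key : ∀ n, tbl.All (fun r C Z k => r < n → Good C Z k) := by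
    intro n
    induction n with
    | zero => exact all_zero _
    | succ n ih => exact chk_step ih tbl h
  obtain ⟨r, C, Z, k, hP, h⟩ := look_sound (key n) hr
  simp only [bnd_iff, Nat.ble_eq, Nat.beq_eq] at h
  obtain ⟨h1, rfl, h3⟩ := h
  exact (hP h1 id pres_id ∅ ∅ (by simp) (by simp) (by simp)).mono h3

end Vale.Agent.P062
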