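import Mathlib

namespace Vale.Agent.P062

/-- The Snaky hexomino. -/
def snaky : Set (ℤ × ℤ) := {(0, 0), (1, 0), (2, 0), (3, 0), (3, 1), (4, 1)}

/-- `T` is an allowed copy `t + R(S)` of Snaky, `R` one of the eight signed permutation matrices
(diagonal with entries `ε, δ = ±1`, or antidiagonal with entries `ε, δ = ±1`). -/
def IsCopy (T : Set (ℤ × ℤ)) : Prop :=
  ∃ (t : ℤ × ℤ) (ε δ : ℤ), (ε = 1 ∨ ε = -1) ∧ (δ = 1 ∨ δ = -1) ∧
    (T = (fun p : ℤ × ℤ => t + (ε * p.1, δ * p.2)) '' snaky ∨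
     T = (fun p : ℤ × ℤ => t + (ε * p.2, δ * p.1)) '' snaky)

/-- The cell claimed by Maker on turn `n` (counted from `0`) when Maker follows the strategy `σ`
(a function of the list of Breaker's earlier moves) and Breaker's moves are `b 0, b 1, ...`. -/
def makerMove (σ : List (ℤ × ℤ) → ℤ × ℤ) (b : ℕ → ℤ × ℤ) (n : ℕ) : ℤ × ℤ :=
  σ ((List.range n).map b)

end Vale.Agent.P062
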