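import Vale.Agent.P062.Defs

namespace Vale.Agent.P062

open Classical

/-- Maker owns `M`, Breaker owns `B`, Maker to move; Maker owns a copy after `k` more moves. -/
def Wins : ℕ → Finset (ℤ × ℤ) → Finset (ℤ × ℤ) → Prop
  | 0, M, _ => ∃ T, IsCopy T ∧ T ⊆ (M : Set (ℤ × ℤ))
  | k + 1, M, B => ∃ x, x ∉ M ∧ x ∉ B ∧
      ∀ y, y ∉ insert x M → y ∉ B → Wins k (insert x M) (insert y B)

lemma fresh (M B : Finset (ℤ × ℤ)) : ∃ x, x ∉ M ∧ x ∉ B := by
  obtain ⟨x, hx⟩ := Infinite.exists_notMem_finset (M ∪ B)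
  exact ⟨x, fun h => hx (Finset.mem_union_left _ h), fun h => hx (Finset.mem_union_right _ h)⟩

lemma Wins.succ : ∀ {k : ℕ} {M B : Finset (ℤ × ℤ)}, Wins k M B → Wins (k + 1) M B
  | 0, M, B, ⟨T, hT, hM⟩ => by
      obtain ⟨x, h1, h2⟩ := fresh M B
      refine ⟨x, h1, h2, fun y _ _ => ⟨T, hT, hM.trans ?_⟩⟩
      intro z hz
      simp only [Finset.coe_insert, Set.mem_insert_iff]
      exact Or.inr hz
  | k + 1, M, B, ⟨x, h1, h2, h3⟩ => ⟨x, h1, h2, fun y hy hy' => (h3 y hy hy').succ⟩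

lemma Wins.mono {k l : ℕ} {M B : Finset (ℤ × ℤ)} (h : Wins k M B) (hkl : k ≤ l) :
    Wins l M B := by
  induction hkl with
  | refl => exact h
  | step _ ih => exact ih.succ

/-- Maker's chosen move. -/
noncomputable def pick (k : ℕ) (M B : Finset (ℤ × ℤ)) : ℤ × ℤ :=
  if h : 0 < k ∧ Wins (k - 1 + 1) M B then Classical.choose h.2 else Classical.choose (fresh M B)

lemma pick_legal (k : ℕ) (M B : Finset (ℤ × ℤ)) : pick k M B ∉ M ∧ pick k M B ∉ B := by
  unfold pick
  split_ifs with h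
  · exact ⟨(Classical.choose_spec h.2).1, (Classical.choose_spec h.2).2.1⟩
  · exact Classical.choose_spec (fresh M B)

lemma pick_wins {k : ℕ} {M B : Finset (ℤ × ℤ)} (h : Wins k M B) (y : ℤ × ℤ)
    (hy : y ∉ insert (pick k M B) M) (hy' : y ∉ B) :
    Wins (k - 1) (insert (pick k M B) M) (insert y B) := by
  rcases k with _ | k
  · obtain ⟨T, hT, hM⟩ := h
    refine ⟨T, hT, hM.trans ?_⟩
    intro z hz
    simp only [Finset.coe_insert, Set.mem_insert_iff]
    exact Or.inr hz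
  · have h' : 0 < k + 1 ∧ Wins (k + 1 - 1 + 1) M B := ⟨Nat.succ_pos _, by simpa using h⟩
    have e : pick (k + 1) M B = Classical.choose h'.2 := by
      unfold pick
      rw [dif_pos h']
    rw [e] at hy ⊢
    exact (Classical.choose_spec h'.2).2.2 y hy hy'

/-- One round. -/
noncomputable def stepState (s : ℕ × Finset (ℤ × ℤ) × Finset (ℤ × ℤ)) (y : ℤ × ℤ) :
    ℕ × Finset (ℤ × ℤ) × Finset (ℤ × ℤ) :=
  (s.1 - 1, insert (pick s.1 s.2.1 s.2.2) s.2.1, insert y s.2.2)

noncomputable def stateOf (N : ℕ) (l : List (ℤ × ℤ)) : ℕ × Finset (ℤ × ℤ) × Finset (ℤ × ℤ) :=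
  l.foldl stepState (N, ∅, ∅)

noncomputable def strat (N : ℕ) (l : List (ℤ × ℤ)) : ℤ × ℤ :=
  pick (stateOf N l).1 (stateOf N l).2.1 (stateOf N l).2.2

lemma state_succ (N : ℕ) (b : ℕ → ℤ × ℤ) (n : ℕ) :
    stateOf N ((List.range (n + 1)).map b) = stepState (stateOf N ((List.range n).map b)) (b n) := by
  simp [stateOf, List.range_succ, List.foldl_append]

lemma state_spec (N : ℕ) (b : ℕ → ℤ × ℤ) (n : ℕ) :
    (stateOf N ((List.range n).map b)).1 = N - n ∧
    (∀ z, z ∈ (stateOf N ((List.range n).map b)).2.1 ↔ ∃ j < n, makerMove (strat N) b j = z) ∧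
    (∀ z, z ∈ (stateOf N ((List.range n).map b)).2.2 ↔ ∃ j < n, b j = z) := by
  induction n with
  | zero => simp [stateOf]
  | succ n ih =>
    obtain ⟨h1, h2, h3⟩ := ih
    rw [state_succ]
    refine ⟨?_, fun z => ?_, fun z => ?_⟩
    · simp only [stepState, h1]; omega
    · simp only [stepState, Finset.mem_insert, h2]
      constructor
      · rintro (rfl | ⟨j, hj, rfl⟩)
        · exact ⟨n, Nat.lt_succ_self _, rfl⟩
        · exact ⟨j, Nat.lt_succ_of_lt hj, rfl⟩
      · rintro ⟨j, hj, rfl⟩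
        rcases Nat.lt_succ_iff_lt_or_eq.1 hj with h | rfl
        · exact Or.inr ⟨j, h, rfl⟩
        · exact Or.inl rfl
    · simp only [stepState, Finset.mem_insert, h3]
      constructor
      · rintro (rfl | ⟨j, hj, rfl⟩)
        · exact ⟨n, Nat.lt_succ_self _, rfl⟩
        · exact ⟨j, Nat.lt_succ_of_lt hj, rfl⟩
      · rintro ⟨j, hj, rfl⟩
        rcases Nat.lt_succ_iff_lt_or_eq.1 hj with h | rfl
        · exact Or.inr ⟨j, h, rfl⟩
        · exact Or.inl rfl

theorem strategy_of_wins (N : ℕ) (hN : Wins N ∅ ∅) :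
    ∃ σ : List (ℤ × ℤ) → ℤ × ℤ, ∀ (b : ℕ → ℤ × ℤ) (n : ℕ),
      (∀ i < n, (∀ j ≤ i, b i ≠ makerMove σ b j) ∧ (∀ j < i, b i ≠ b j)) →
        (∀ j < n, makerMove σ b n ≠ makerMove σ b j ∧ makerMove σ b n ≠ b j) ∧
        (N ≤ n → ∃ T, IsCopy T ∧ ∀ p ∈ T, ∃ j < n, makerMove σ b j = p) := by
  refine ⟨strat N, fun b n hb => ⟨fun j hj => ?_, fun hn => ?_⟩⟩
  · obtain ⟨-, h2, h3⟩ := state_spec N b n
    have := pick_legal (stateOf N ((List.range n).map b)).1 (stateOf N ((List.range n).map b)).2.1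
      (stateOf N ((List.range n).map b)).2.2
    refine ⟨fun h => this.1 ((h2 _).2 ⟨j, hj, h.symm⟩), fun h => this.2 ((h3 _).2 ⟨j, hj, h.symm⟩)⟩
  · have key : ∀ m ≤ n, Wins (stateOf N ((List.range m).map b)).1
        (stateOf N ((List.range m).map b)).2.1 (stateOf N ((List.range m).map b)).2.2 := by
      intro m
      induction m with
      | zero => intro _; simpa [stateOf] using hN
      | succ m ih =>
        intro hm
        have hW := ih (Nat.le_of_succ_le hm)
        obtain ⟨-, h2, h3⟩ := state_spec N b m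
        rw [state_succ]
        refine pick_wins hW (b m) ?_ ?_
        · intro h
          rcases Finset.mem_insert.1 h with h | h
          · exact (hb m hm).1 m le_rfl h
          · obtain ⟨j, hj, e⟩ := (h2 _).1 h
            exact (hb m hm).1 j hj.le e.symm
        · intro h
          obtain ⟨j, hj, e⟩ := (h3 _).1 h
          exact (hb m hm).2 j hj e.symm
    have hW := key n le_rfl
    obtain ⟨h1, h2, -⟩ := state_spec N b n
    rw [h1, Nat.sub_eq_zero_of_le hn] at hW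
    obtain ⟨T, hT, hM⟩ := hW
    exact ⟨T, hT, fun p hp => (h2 p).1 (hM hp)⟩

end Vale.Agent.P062
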