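import Vale.Agent.P062.Table

namespace Vale.Agent.P062

theorem chk6 : chk tbl T6 = true := by decide +kernel

theorem chk7 : chk tbl T7 = true := by decide +kernel

theorem chk8 : chk tbl T8 = true := by decide +kernel

theorem chk9 : chk tbl T9 = true := by decide +kernel

theorem chk10 : chk tbl T10 = true := by decide +kernel

theorem chk11 : chk tbl T11 = true := by decide +kernel

end Vale.Agent.P062
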