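import Vale.Agent.P062.Table

namespace Vale.Agent.P062

theorem chk12 : chk tbl T12 = true := by decide +kernel

theorem chk13 : chk tbl T13 = true := by decide +kernel

theorem chk14 : chk tbl T14 = true := by decide +kernel

theorem chk15 : chk tbl T15 = true := by decide +kernel

theorem chk16 : chk tbl T16 = true := by decide +kernel

theorem chk17 : chk tbl T17 = true := by decide +kernel

end Vale.Agent.P062
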