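import Vale.Agent.P062.Table

namespace Vale.Agent.P062

theorem chk18 : chk tbl T18 = true := by decide +kernel

theorem chk19 : chk tbl T19 = true := by decide +kernel

theorem chk20 : chk tbl T20 = true := by decide +kernel

theorem chk21 : chk tbl T21 = true := by decide +kernel

theorem chk22 : chk tbl T22 = true := by decide +kernel

theorem chk23 : chk tbl T23 = true := by decide +kernel

end Vale.Agent.P062
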