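import Vale.Agent.P062.Table

namespace Vale.Agent.P062

theorem chk24 : chk tbl T24 = true := by decide +kernel

theorem chk25 : chk tbl T25 = true := by decide +kernel

theorem chk26 : chk tbl T26 = true := by decide +kernel

theorem chk27 : chk tbl T27 = true := by decide +kernel

theorem chk28 : chk tbl T28 = true := by decide +kernel

theorem chk29 : chk tbl T29 = true := by decide +kernel

end Vale.Agent.P062
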