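import Vale.Agent.P062.Table

namespace Vale.Agent.P062

theorem chk30 : chk tbl T30 = true := by decide +kernel

theorem chk31 : chk tbl T31 = true := by decide +kernel

theorem chk32 : chk tbl T32 = true := by decide +kernel

theorem chk33 : chk tbl T33 = true := by decide +kernel

theorem chk34 : chk tbl T34 = true := by decide +kernel

theorem chk35 : chk tbl T35 = true := by decide +kernel

end Vale.Agent.P062
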