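import Vale.Agent.P062.Run0
import Vale.Agent.P062.Run1
import Vale.Agent.P062.Run2
import Vale.Agent.P062.Run3
import Vale.Agent.P062.Run4
import Vale.Agent.P062.Run5

namespace Vale.Agent.P062

theorem chk_all : chk tbl tbl = true :=
  (chk_node (chk_node (chk_node (chk_node (chk_node chk0 chk1) (chk_node chk2 chk3)) (chk_node (chk_node chk4 chk5) (chk_node chk6 (chk_node chk7 chk8)))) (chk_node (chk_node (chk_node chk9 chk10) (chk_node chk11 chk12)) (chk_node (chk_node chk13 chk14) (chk_node chk15 (chk_node chk16 chk17))))) (chk_node (chk_node (chk_node (chk_node chk18 chk19) (chk_node chk20 chk21)) (chk_node (chk_node chk22 chk23) (chk_node chk24 (chk_node chk25 chk26)))) (chk_node (chk_node (chk_node chk27 chk28) (chk_node chk29 chk30)) (chk_node (chk_node chk31 chk32) (chk_node chk33 (chk_node chk34 chk35))))))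

theorem wins_empty : Wins 32 ∅ ∅ :=
  wins_of_chk chk_all 17582 17583 32 (by decide +kernel)

end Vale.Agent.P062
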