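import Vale.Agent.P062.Table

namespace Vale.Agent.P062

theorem chk0 : chk tbl T0 = true := by decide +kernel

theorem chk1 : chk tbl T1 = true := by decide +kernel

theorem chk2 : chk tbl T2 = true := by decide +kernel

theorem chk3 : chk tbl T3 = true := by decide +kernel

theorem chk4 : chk tbl T4 = true := by decide +kernel

theorem chk5 : chk tbl T5 = true := by decide +kernel

end Vale.Agent.P062
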