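import Vale.Agent.P062.Data0
import Vale.Agent.P062.Data1
import Vale.Agent.P062.Data2
import Vale.Agent.P062.Data3
import Vale.Agent.P062.Data4
import Vale.Agent.P062.Data5

namespace Vale.Agent.P062

noncomputable def tbl : Tr :=
  (Tr.node 8791 (Tr.node 4395 (Tr.node 1953 (Tr.node 976 (Tr.node 488 T0 T1) (Tr.node 1465 T2 T3)) (Tr.node 2930 (Tr.node 2442 T4 T5) (Tr.node 3418 T6 (Tr.node 3907 T7 T8)))) (Tr.node 6349 (Tr.node 5372 (Tr.node 4884 T9 T10) (Tr.node 5861 T11 T12)) (Tr.node 7326 (Tr.node 6837 T13 T14) (Tr.node 7814 T15 (Tr.node 8303 T16 T17))))) (Tr.node 13187 (Tr.node 10745 (Tr.node 9768 (Tr.node 9279 T18 T19) (Tr.node 10256 T20 T21)) (Tr.node 11722 (Tr.node 11233 T22 T23) (Tr.node 12210 T24 (Tr.node 12698 T25 T26)))) (Tr.node 15140 (Tr.node 14164 (Tr.node 13675 T27 T28) (Tr.node 14652 T29 T30)) (Tr.node 16117 (Tr.node 15629 T31 T32) (Tr.node 16606 T33 (Tr.node 17094 T34 T35))))))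

end Vale.Agent.P062
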